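import Mathlib
import Vale.Agent.Lib.P068.Defs
import Vale.Agent.Lib.P068.Invariance

namespace Vale.Agent.Results.P068.A_finite_invariance

open Vale.Agent.Lib.P068 Matroid

/-- Satisfying intersection is invariant under finite changes: let `M`, `N` be arbitrary matroids
on the same ground set and `F = C₁ ∪ D₁ = C₂ ∪ D₂` a finite set. Then the pair
`(M ／ C₁ ＼ D₁, N ／ C₂ ＼ D₂)` satisfies intersection if and only if `(M, N)` does. Each element
of `F` can be deleted or contracted, independently in `M` and in `N`. -/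
theorem result {α : Type*} (M N : Matroid α) (hE : M.E = N.E) (C₁ D₁ C₂ D₂ : Set α)
    (hF : (C₁ ∪ D₁).Finite) (hF2 : C₂ ∪ D₂ = C₁ ∪ D₁) :
    SatisfiesIntersection (M ／ C₁ ＼ D₁) (N ／ C₂ ＼ D₂) ↔ SatisfiesIntersection M N :=
  satisfies_minor_iff hE hF hF2

end Vale.Agent.Results.P068.A_finite_invariance
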