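import Mathlib
import Vale.Agent.Lib.P068.Defs
import Vale.Agent.Lib.P068.Near

namespace Vale.Agent.Results.P068.A_near_solution

open Vale.Agent.Lib.P068

/-- Near solutions give solutions: for arbitrary matroids `M`, `N` on the same ground set, if
disjoint sets `X`, `Y` are such that `X ∪ Y` has finite nullity in `M` and in `N`, and for some
finite set `G` the sets `cl_M (X ∪ G)` and `cl_N (Y ∪ G)` cover the ground set, then the pair
satisfies intersection. -/
theorem result {α : Type*} (M N : Matroid α) (hE : M.E = N.E) (X Y G : Set α)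
    (hd : Disjoint X Y) (hM : ∃ I ⊆ X ∪ Y, M.Indep I ∧ ((X ∪ Y) \ I).Finite)
    (hN : ∃ I ⊆ X ∪ Y, N.Indep I ∧ ((X ∪ Y) \ I).Finite) (hG : G.Finite)
    (hcov : M.E ⊆ M.closure (X ∪ G) ∪ N.closure (Y ∪ G)) :
    SatisfiesIntersection M N :=
  satisfies_of_near hE hd hM hN hG hcov

end Vale.Agent.Results.P068.A_near_solution
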