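import Mathlib
import Vale.Agent.Lib.P068.Defs
import Vale.Agent.Lib.P068.Invariance

namespace Vale.Agent.Results.P068.A_sum_almost_uniform

open Vale.Agent.Lib.P068 Matroid

/-- Matroid intersection for an arbitrary matroid `M` and a matroid `N` which, after contracting
a finite set `C` and deleting a finite set `D`, is a direct sum of finitely many matroids `Ns i`
in each of which every `M`-independent subset of the ground set has finite nullity or
finite corank (`AlmostUniformOn`). In particular (take `C = D = ∅`) for `N` a finite direct
sum of almost uniform matroids. -/
theorem result {α ι : Type*} [Finite ι] (M N : Matroid α) (hE : M.E = N.E) (C D : Set α)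
    (hC : C.Finite) (hD : D.Finite) (Ns : ι → Matroid α)
    (hd : Pairwise (Function.onFun Disjoint fun i => (Ns i).E))
    (hN : N ／ C ＼ D = Matroid.disjointSigma Ns hd) (hU : ∀ i, AlmostUniformOn M (Ns i)) :
    SatisfiesIntersection M N :=
  satisfies_of_minor_sum hE hC hD Ns hd hN hU

end Vale.Agent.Results.P068.A_sum_almost_uniform
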