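import Vale.Agent.Results.P068.A_CH_counterexample
import Vale.Agent.Results.P068.A_finite_invariance
import Vale.Agent.Results.P068.A_near_solution
import Vale.Agent.Results.P068.A_sum_almost_uniform

namespace Vale.Agent.Results.P068.A00_master

open Set Vale.Agent.Lib.P068
open Vale.Agent.Lib.P068 Matroid
open Vale.Agent.Lib.P068

/-- The statement of part 1. -/
def part1 : Prop :=
  ∀ (hCH : Cardinal.aleph.{0} 1 = Cardinal.continuum.{0}),
    ∃ (Us : ℤ → Matroid (Bool × ℕ)) (N : Matroid (ℤ × Bool × ℕ)),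
        (∀ k, (Us k).E = univ ∧ ∀ S, (Us k).Indep S ∨ (Us k).Spanning S) ∧
        N.E = univ ∧
        (∀ S, N.Indep S ↔ ∀ k n, ¬ ((k, true, n) ∈ S ∧ (k + 1, false, n) ∈ S)) ∧
        (Matroid.sum' Us).E = univ ∧
        ¬ SatisfiesIntersection (Matroid.sum' Us) N

/-- The statement of part 2. -/
def part2 : Prop :=
  ∀ {α : Type*} (M N : Matroid α) (hE : M.E = N.E) (C₁ D₁ C₂ D₂ : Set α)
      (hF : (C₁ ∪ D₁).Finite) (hF2 : C₂ ∪ D₂ = C₁ ∪ D₁),
    SatisfiesIntersection (M ／ C₁ ＼ D₁) (N ／ C₂ ＼ D₂) ↔ SatisfiesIntersection M N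

/-- The statement of part 3. -/
def part3 : Prop :=
  ∀ {α : Type*} (M N : Matroid α) (hE : M.E = N.E) (X Y G : Set α)
      (hd : Disjoint X Y) (hM : ∃ I ⊆ X ∪ Y, M.Indep I ∧ ((X ∪ Y) \ I).Finite)
      (hN : ∃ I ⊆ X ∪ Y, N.Indep I ∧ ((X ∪ Y) \ I).Finite) (hG : G.Finite)
      (hcov : M.E ⊆ M.closure (X ∪ G) ∪ N.closure (Y ∪ G)),
    SatisfiesIntersection M N

/-- The statement of part 4. -/
def part4 : Prop :=
  ∀ {α ι : Type*} [Finite ι] (M N : Matroid α) (hE : M.E = N.E) (C D : Set α)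
      (hC : C.Finite) (hD : D.Finite) (Ns : ι → Matroid α)
      (hd : Pairwise (Function.onFun Disjoint fun i => (Ns i).E))
      (hN : N ／ C ＼ D = Matroid.disjointSigma Ns hd) (hU : ∀ i, AlmostUniformOn M (Ns i)),
    SatisfiesIntersection M N

theorem result : part1 ∧ part2 ∧ part3 ∧ part4 :=
  ⟨@Vale.Agent.Results.P068.A_CH_counterexample.result, @Vale.Agent.Results.P068.A_finite_invariance.result, @Vale.Agent.Results.P068.A_near_solution.result, @Vale.Agent.Results.P068.A_sum_almost_uniform.result⟩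

end Vale.Agent.Results.P068.A00_master
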