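import Vale.Agent.Lib.P068.CH.Chain

namespace Vale.Agent.Results.P068.A_CH_counterexample

open Set Vale.Agent.Lib.P068

/-- Under the continuum hypothesis the matroid intersection conjecture is false: on the countable
ground set `ℤ × Bool × ℕ` there are a direct sum `M` of uniform matroids (every subset of a summand
is independent or spanning) and a direct sum `N` of the two-element circuits
`(k, true, n), (k + 1, false, n)` such that `(M, N)` does not satisfy intersection. -/
theorem result (hCH : Cardinal.aleph.{0} 1 = Cardinal.continuum.{0}) :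
    ∃ (Us : ℤ → Matroid (Bool × ℕ)) (N : Matroid (ℤ × Bool × ℕ)),
      (∀ k, (Us k).E = univ ∧ ∀ S, (Us k).Indep S ∨ (Us k).Spanning S) ∧
      N.E = univ ∧
      (∀ S, N.Indep S ↔ ∀ k n, ¬ ((k, true, n) ∈ S ∧ (k + 1, false, n) ∈ S)) ∧
      (Matroid.sum' Us).E = univ ∧
      ¬ SatisfiesIntersection (Matroid.sum' Us) N :=
  Vale.Agent.Lib.P068.CH.exists_counterexample hCH

end Vale.Agent.Results.P068.A_CH_counterexample
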