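import Mathlib
import Vale.Agent.Lib.P068.Defs
import Vale.Agent.Lib.P068.FiniteDefect

namespace Vale.Agent.Results.P068.B_finite_defect

open Vale.Agent.Lib.P068

/-- Matroid intersection for arbitrary (possibly infinite, not necessarily finitary) matroids
`M`, `N` on a common ground set, whenever some base `B` of `M` and some base `D` of `N` satisfy:
`D \ B` is finite or `B \ D` is finite. -/
theorem result {α : Type*} (M N : Matroid α) (hE : M.E = N.E) (B D : Set α)
    (hB : M.IsBase B) (hD : N.IsBase D) (h : (D \ B).Finite ∨ (B \ D).Finite) :
    SatisfiesIntersection M N :=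
  satisfies_of_finite_defect hE hB hD h

end Vale.Agent.Results.P068.B_finite_defect
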